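import Mathlib
import Vale.Agent.Lib.P032.FourColours

/-- A proper colouring of the Euclidean plane with five colours whose classes have the property
of Baire has at most one closed class. -/
theorem Vale.Agent.Results.P032.BaireOneClosed.result
    (c : EuclideanSpace ℝ (Fin 2) → Fin 5) (hc : ∀ x y, dist x y = 1 → c x ≠ c y)
    (hB : ∀ i, BaireMeasurableSet (c ⁻¹' {i})) :
    {i : Fin 5 | IsClosed (c ⁻¹' {i})}.ncard ≤ 1 :=
  Vale.Agent.Lib.P032.baire_one_closed c hc hB
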