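import Mathlib
import Vale.Agent.Lib.P032.Closed

/-- In a proper colouring of the Euclidean plane with five colours, with no regularity assumption
on the other classes, at most two colour classes are closed sets. -/
theorem Vale.Agent.Results.P032.ClosedClasses.result
    (c : EuclideanSpace ℝ (Fin 2) → Fin 5) (hc : ∀ x y, dist x y = 1 → c x ≠ c y) :
    {i : Fin 5 | IsClosed (c ⁻¹' {i})}.ncard ≤ 2 :=
  Vale.Agent.Lib.P032.plane_two_closed c hc
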