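import Mathlib
import Vale.Agent.Lib.P032.FourColours

open Set

/-- Five open subsets of the Euclidean plane with dense union, none containing two points at
distance one, have a common boundary configuration: a point `z` lying in the closures of at
least four of the sets, such that two of these closures also contain a whole arc of the unit
circle around `z`, and each closure containing `z` meets the unit circle around `z`. -/
theorem Vale.Agent.Results.P032.OpenFour.result
    (U : Fin 5 → Set (EuclideanSpace ℝ (Fin 2))) (hU : ∀ i, IsOpen (U i))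
    (hd : Dense (⋃ i, U i)) (h1 : ∀ i, ∀ x ∈ U i, ∀ y ∈ U i, dist x y ≠ 1) :
    ∃ i j, i ≠ j ∧ ∃ z, z ∈ closure (U i) ∧ z ∈ closure (U j) ∧
      (∃ θ₁ θ₂ : ℝ, θ₁ < θ₂ ∧ ∀ θ ∈ Icc θ₁ θ₂, z + !₂[Real.cos θ, Real.sin θ] ∈ closure (U i) ∧
        z + !₂[Real.cos θ, Real.sin θ] ∈ closure (U j)) ∧
      (∃ k l, k ≠ i ∧ k ≠ j ∧ l ≠ i ∧ l ≠ j ∧ k ≠ l ∧ z ∈ closure (U k) ∧ z ∈ closure (U l)) ∧
      ∀ k, z ∈ closure (U k) → ∃ θ : ℝ, z + !₂[Real.cos θ, Real.sin θ] ∈ closure (U k) :=
  Vale.Agent.Lib.P032.plane_open_four U hU hd h1
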