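import Vale.Agent.Results.P032.BaireFour
import Vale.Agent.Results.P032.BaireOneClosed
import Vale.Agent.Results.P032.ClosedClasses
import Vale.Agent.Results.P032.OpenFour

/-- The four results on colourings of the plane, stated together. -/
theorem Vale.Agent.Results.P032.A0Conj.result :
    (type_of% @Vale.Agent.Results.P032.BaireFour.result) ∧
    (type_of% @Vale.Agent.Results.P032.BaireOneClosed.result) ∧
    (type_of% @Vale.Agent.Results.P032.ClosedClasses.result) ∧
    (type_of% @Vale.Agent.Results.P032.OpenFour.result) :=
  ⟨@Vale.Agent.Results.P032.BaireFour.result,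
    @Vale.Agent.Results.P032.BaireOneClosed.result,
    @Vale.Agent.Results.P032.ClosedClasses.result,
    @Vale.Agent.Results.P032.OpenFour.result⟩
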