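import Mathlib
import Vale.Agent.Lib.P032.FourColours

open Set Metric

/-- A proper colouring of the Euclidean plane with five colours whose classes have the property
of Baire (for instance Borel classes). Write `E k` for the set of points every ball around which
meets class `k` in a nonmeagre set. Then there is a point `z` in at least four of the sets `E k`,
two of which also contain a whole arc of the unit circle around `z`, and each `E k` containing `z`
meets the unit circle around `z`. -/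
theorem Vale.Agent.Results.P032.BaireFour.result
    (c : EuclideanSpace ℝ (Fin 2) → Fin 5) (hc : ∀ x y, dist x y = 1 → c x ≠ c y)
    (hB : ∀ i, BaireMeasurableSet (c ⁻¹' {i})) :
    let E : Fin 5 → Set (EuclideanSpace ℝ (Fin 2)) :=
      fun k => {p | ∀ r > 0, ¬ IsMeagre (ball p r ∩ c ⁻¹' {k})}
    ∃ i j, i ≠ j ∧ ∃ z, z ∈ E i ∧ z ∈ E j ∧
      (∃ θ₁ θ₂ : ℝ, θ₁ < θ₂ ∧ ∀ θ ∈ Icc θ₁ θ₂, z + !₂[Real.cos θ, Real.sin θ] ∈ E i ∧
        z + !₂[Real.cos θ, Real.sin θ] ∈ E j) ∧
      (∃ k l, k ≠ i ∧ k ≠ j ∧ l ≠ i ∧ l ≠ j ∧ k ≠ l ∧ z ∈ E k ∧ z ∈ E l) ∧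
      ∀ k, z ∈ E k → ∃ θ : ℝ, z + !₂[Real.cos θ, Real.sin θ] ∈ E k :=
  Vale.Agent.Lib.P032.baire_four c hc hB
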